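import Vale.Agent.P358.Final

open Vale.Agent.P358

theorem Vale.Agent.Results.P358.Additivity.result (γ ν : ℝ) (hγ : γ ∈ Set.Icc (0 : ℝ) 1)
    (hν : ν ∈ Set.Icc (0 : ℝ) 1) :
    classicalCap (gad γ ν) = holevoCap (gad γ ν) ∧
    (∀ n : ℕ, 1 ≤ n → holevoCap (tensorPow (gad γ ν) n) = n * holevoCap (gad γ ν)) ∧
    IsGreatest (capFun γ ν '' Set.Icc 0 1) (classicalCap (gad γ ν)) ∧
    IsGreatest (holevoSet (gad γ ν)) (holevoCap (gad γ ν)) ∧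
    (∀ n : ℕ, 1 ≤ n →
      IsGreatest (holevoSet (tensorPow (gad γ ν) n)) (holevoCap (tensorPow (gad γ ν) n))) := by
  obtain ⟨h1, h2, h3, h4, h5⟩ := final hγ hν
  exact ⟨h5, fun n _ => h4 n, h5 ▸ h1, h2, fun n _ => h4 n ▸ h3 n⟩
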